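import Vale.Agent.P097.H877.Bd.Priv
import Vale.Agent.P097.H899.Nt2A

/-!
Transfer of boundary behaviour through a holomorphic map (Loewner), part 1: the maximum principle
on a sawtooth domain, at one density point.
-/

open Complex Metric Filter Topology Set MeasureTheory
open Vale.Agent.P097.H877.Bd

namespace Vale.Agent.P097.H63.Tr

/-- two-constants estimate on a sawtooth domain, sharp form -/
theorem saw_max2 {k h k₁ h₁ : ℝ} (hk₁ : 0 < k₁) (hk : k₁ < k) (hh₁ : 0 < h₁) (hh : h₁ < h)
    {K : Set ℝ} (hK : IsCompact K) {f : ℂ → ℂ}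
    (hf : DifferentiableOn ℂ f (saw k h K)) (h1 : ∀ z ∈ saw k h K, ‖f z‖ ≤ 1) {s : ℝ} (hs : 0 ≤ s)
    (hbd : ∀ x ∈ K, ∀ δ > 0, ∀ᶠ z : ℂ in 𝓝 (x : ℂ), z ∈ saw k h K →
      ‖f z‖ ≤ Real.exp (-(s * (2 * Real.arctan k₁))) + δ)
    (hsmall : (volume K).toReal / h₁ ≤ Real.pi - 2 * Real.arctan k₁) :
    ∀ z ∈ saw k₁ h₁ K, ‖f z‖ *
      Real.exp (s * ((cau K z).im - (Real.pi - 2 * Real.arctan k₁))) ≤ 1 := by
  have hKf : volume K ≠ ⊤ := hK.measure_lt_top.ne
  obtain ⟨c, hc⟩ : ∃ c, c = Real.pi - 2 * Real.arctan k₁ := ⟨_, rfl⟩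
  have hc' : 2 * Real.arctan k₁ = Real.pi - c := by linarith
  rw [← hc] at hsmall ⊢
  rw [hc'] at hbd
  have hk0 : 0 < k := hk₁.trans hk
  have hc0 : 0 ≤ c := by
    refine le_trans ?_ hsmall
    positivity
  have hsub : saw k₁ h₁ K ⊆ saw k h K :=
    saw_mono hk₁ (by linarith) (by linarith) subset_rfl
  set G : ℂ → ℂ := fun z => f z * Complex.exp (s * bar K c z) with hG
  have hGn : ∀ z, ‖G z‖ = ‖f z‖ * Real.exp (s * ((cau K z).im - c)) := by
    intro z
    simp only [hG, norm_mul, Complex.norm_exp]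
    congr 2
    simp [bar_re]
  have hGd : ∀ z ∈ saw k h K, DifferentiableAt ℂ G z := by
    intro z hz
    refine (hf.differentiableAt ((isOpen_saw k h K).mem_nhds hz)).mul ?_
    exact ((differentiableAt_bar hKf c (saw_im_pos hk0 hz)).const_mul (s : ℂ)).cexp
  have hmain : ∀ z ∈ saw k₁ h₁ K, ‖G z‖ ≤ 1 := by
    refine norm_le_of_frontier (isBounded_saw hk₁ hK.isBounded) (isOpen_saw _ _ _)
      (fun z hz => (hGd z (hsub hz)).differentiableWithinAt) ?_
    intro ζ hζ δ hδ
    rw [(isOpen_saw _ _ _).frontier_eq] at hζ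
    obtain ⟨x, hxK, hx1, hx2⟩ := closure_saw hK hζ.1
    have him : 0 ≤ ζ.im := by
      have := (abs_nonneg _).trans hx1
      by_contra hneg
      push Not at hneg
      nlinarith
    rcases him.eq_or_lt with him | him
    · -- a point of the real axis
      have hζx : ζ = (x : ℂ) := by
        rw [← him, mul_zero] at hx1
        have h3 : ζ.re - x = 0 := abs_eq_zero.mp (le_antisymm hx1 (abs_nonneg _))
        apply Complex.ext
        · simp; linarith
        · simp [← him]
      have hev := hbd x hxK (δ * Real.exp (-(s * (Real.pi - c)))) (by positivity)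
      rw [← hζx] at hev
      filter_upwards [mem_nhdsWithin_of_mem_nhds hev, self_mem_nhdsWithin] with z hz1 hz2
      have hzs := hsub hz2
      have hzim := saw_im_pos hk0 hzs
      have h3 := hz1 hzs
      rw [hGn]
      have h4 : (cau K z).im - c ≤ Real.pi - c := by
        rw [cau_im hKf hzim]
        linarith [setIntegral_pk_le (K := K) hzim]
      have h5 : Real.exp (s * ((cau K z).im - c)) ≤ Real.exp (s * (Real.pi - c)) := by
        apply Real.exp_le_exp.mpr
        exact mul_le_mul_of_nonneg_left h4 hs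
      calc ‖f z‖ * Real.exp (s * ((cau K z).im - c))
          ≤ (Real.exp (-(s * (Real.pi - c))) + δ * Real.exp (-(s * (Real.pi - c)))) *
              Real.exp (s * (Real.pi - c)) :=
            mul_le_mul h3 h5 (Real.exp_pos _).le (by positivity)
        _ = (1 + δ) * (Real.exp (-(s * (Real.pi - c))) * Real.exp (s * (Real.pi - c))) := by ring
        _ = 1 + δ := by rw [← Real.exp_add]; simp
    · -- a point of the upper half plane
      have hζs : ζ ∈ saw k h K := by
        refine mem_saw.mpr ⟨x, hxK, ?_, by linarith⟩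
        have := mul_lt_mul_of_pos_right hk him
        linarith
      have hfar : (cau K ζ).im ≤ c := by
        rcases le_or_gt h₁ ζ.im with h6 | h6
        · refine (cau_le_of_high hKf him).trans (le_trans ?_ hsmall)
          gcongr
        · rw [hc]
          refine cau_le_of_far hKf him hk₁ fun t ht => ?_
          by_contra hcon
          push Not at hcon
          exact hζ.2 (mem_saw.mpr ⟨t, ht, hcon, h6⟩)
      have hle : ‖G ζ‖ ≤ 1 := by
        rw [hGn]
        have h7 : Real.exp (s * ((cau K ζ).im - c)) ≤ 1 := by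
          rw [Real.exp_le_one_iff]
          exact mul_nonpos_of_nonneg_of_nonpos hs (by linarith)
        calc _ ≤ 1 * 1 := mul_le_mul (h1 ζ hζs) h7 (Real.exp_pos _).le zero_le_one
          _ = 1 := one_mul 1
      have h8 : ∀ᶠ z in 𝓝 ζ, ‖G z‖ < 1 + δ :=
        (hGd ζ hζs).continuousAt.norm.eventually (gt_mem_nhds (by linarith))
      exact mem_nhdsWithin_of_mem_nhds (h8.mono fun z hz => hz.le)
  intro z hz
  rw [← hGn]
  exact hmain z hz

theorem cau_im_nonneg {K : Set ℝ} (hK : volume K ≠ ⊤) {z : ℂ} (hz : 0 < z.im) :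
    0 ≤ (cau K z).im := by
  rw [cau_im hK hz]
  exact integral_nonneg fun t => (pk_pos hz t).le

theorem cau_im_le_pi {K : Set ℝ} (hK : volume K ≠ ⊤) {z : ℂ} (hz : 0 < z.im) :
    (cau K z).im ≤ Real.pi := by
  rw [cau_im hK hz]
  exact setIntegral_pk_le hz

/-- comparison of the Poisson integrals of `B ⊆ B'` -/
theorem cau_im_le_add {B B' : Set ℝ} (hB : MeasurableSet B) (hB' : volume B' ≠ ⊤) (hsub : B ⊆ B')
    {z : ℂ} (hz : 0 < z.im) :
    (cau B' z).im ≤ (cau B z).im + (volume (B' \ B)).toReal / z.im := by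
  have h1 : volume B ≠ ⊤ := ((measure_mono hsub).trans_lt hB'.lt_top).ne
  have h2 : volume (B' \ B) ≠ ⊤ := ((measure_mono sdiff_subset).trans_lt hB'.lt_top).ne
  have h3 := cau_le_of_high h2 hz
  rw [cau_im h2 hz] at h3
  rw [cau_im hB' hz, cau_im h1 hz]
  have h4 : ∫ t in B', pk z t = (∫ t in B' ∩ B, pk z t) + ∫ t in B' \ B, pk z t :=
    (integral_inter_add_sdiff hB (integrable_pk hz).integrableOn).symm
  rw [inter_eq_self_of_subset_right hsub] at h4
  linarith

/-- the Poisson integral of a set which contains `[b - d, b + d]`, near `b` -/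
theorem cau_im_near {B : Set ℝ} (hB : IsCompact B) {b d e : ℝ} (hd : Icc (b - d) (b + d) ⊆ B)
    (he : 0 < e) (hed : e ≤ d) {z : ℂ} (hz : 0 < z.im) (hzb : ‖z - b‖ ≤ e) :
    2 * Real.arctan ((d - e) / e) ≤ (cau B z).im := by
  have hd0 : 0 < d := he.trans_le hed
  have h1 := H899.Nt.cau_ge_window hB.measurableSet hB.measure_lt_top.ne hz
    (a := b - d) (b := b + d) (m := 0) (by linarith) le_rfl (by
      rw [sdiff_eq_empty.mpr hd]; simp)
  have hre : |z.re - b| ≤ e := by
    have := Complex.abs_re_le_norm (z - b)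
    simp at this
    linarith
  have him : z.im ≤ e := by
    have := Complex.abs_im_le_norm (z - b)
    simp at this
    exact (le_abs_self _).trans (this.trans hzb)
  rw [abs_le] at hre
  have e1 : (d - e) / e ≤ (b + d - z.re) / z.im := by
    have h2 : (d - e) / e ≤ (d - e) / z.im := by
      apply div_le_div_of_nonneg_left (by linarith) hz him
    refine h2.trans (div_le_div_of_nonneg_right (by linarith) hz.le)
  have e2 : (b - d - z.re) / z.im ≤ -((d - e) / e) := by
    have h2 : (d - e) / e ≤ (d - e) / z.im := by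
      apply div_le_div_of_nonneg_left (by linarith) hz him
    have h3 : (b - d - z.re) / z.im ≤ -(d - e) / z.im :=
      div_le_div_of_nonneg_right (by linarith) hz.le
    rw [neg_div] at h3
    linarith
  have h5 := Real.arctan_mono e1
  have h6 := Real.arctan_mono e2
  rw [Real.arctan_neg] at h6
  simp at h1
  linarith

/-- **Loewner estimate on a sawtooth** : if `θ` is close to the compact set `B` near `K`, then
`Im cau B (θ z)` is controlled from below by `Im cau K z` -/
theorem loewner_max {k h k₁ h₁ : ℝ} (hk₁ : 0 < k₁) (hk : k₁ < k) (hh₁ : 0 < h₁) (hh : h₁ < h)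
    {K : Set ℝ} (hK : IsCompact K) {θ : ℂ → ℂ} (hθ : DifferentiableOn ℂ θ (saw k h K))
    (h1 : ∀ z ∈ saw k h K, 0 < (θ z).im) {B : Set ℝ} (hB : IsCompact B)
    (hunif : ∀ ε > 0, ∃ δ > 0, ∀ x ∈ K, ∀ z ∈ cone k δ x, z ∈ saw k h K →
      ∃ b ∈ B, ‖θ z - (b : ℝ)‖ ≤ ε)
    (hsmall : (volume K).toReal / h₁ ≤ Real.pi - 2 * Real.arctan k₁) :
    ∀ z ∈ saw k₁ h₁ K, Real.pi / (2 * Real.arctan k₁) *
      ((cau K z).im - (Real.pi - 2 * Real.arctan k₁)) ≤ (cau B (θ z)).im := by
  have hk0 : 0 < k := hk₁.trans hk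
  have hat : 0 < Real.arctan k₁ := Real.arctan_pos.mpr hk₁
  obtain ⟨s, hs⟩ : ∃ s, s = Real.pi / (2 * Real.arctan k₁) := ⟨_, rfl⟩
  have hs0 : 0 < s := by rw [hs]; positivity
  have hsπ : s * (2 * Real.arctan k₁) = Real.pi := by rw [hs]; field_simp
  have hsub : saw k₁ h₁ K ⊆ saw k h K := saw_mono hk₁ hk.le hh.le subset_rfl
  rw [← hs]
  -- the estimate for the neighbourhoods of `B`
  have key : ∀ d > 0, ∀ z ∈ saw k₁ h₁ K,
      s * ((cau K z).im - (Real.pi - 2 * Real.arctan k₁)) ≤ (cau (cthickening d B) (θ z)).im := by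
    intro d hd z hz
    have hBd : IsCompact (cthickening d B) := hB.cthickening
    have hBf : volume (cthickening d B) ≠ ⊤ := hBd.measure_lt_top.ne
    have hin : ∀ b ∈ B, Icc (b - d) (b + d) ⊆ cthickening d B := by
      intro b hb t ht
      refine mem_cthickening_of_dist_le t b d B hb ?_
      rw [Real.dist_eq, abs_le]
      constructor <;> linarith [ht.1, ht.2]
    have hnorm : ∀ z : ℂ, ‖Complex.exp (I * cau (cthickening d B) (θ z))‖ =
        Real.exp (-(cau (cthickening d B) (θ z)).im) := by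
      intro z
      rw [Complex.norm_exp]
      simp
    have h2 := saw_max2 hk₁ hk hh₁ hh hK
      (f := fun z => Complex.exp (I * cau (cthickening d B) (θ z)))
      (fun z hz => by
        have e1 := differentiableAt_cau hBf (h1 z hz)
        have e2 := hθ.differentiableAt ((isOpen_saw k h K).mem_nhds hz)
        exact ((e1.comp z e2).const_mul I).cexp.differentiableWithinAt)
      (fun z hz => by
        show ‖Complex.exp (I * cau (cthickening d B) (θ z))‖ ≤ 1
        rw [hnorm, Real.exp_le_one_iff]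
        linarith [cau_im_nonneg hBf (h1 z hz)]) hs0.le (by
        intro x hx δ hδ
        rw [hsπ]
        -- choose `e` with `exp (-(2 arctan ((d - e)/e))) ≤ exp (-π) + δ`
        obtain ⟨e, he, hed, hee⟩ : ∃ e, 0 < e ∧ e ≤ d ∧
            Real.exp (-(2 * Real.arctan ((d - e) / e))) ≤ Real.exp (-Real.pi) + δ := by
          have t1 : Tendsto (fun R : ℝ => Real.exp (-(2 * Real.arctan R))) atTop
              (𝓝 (Real.exp (-(2 * (Real.pi / 2))))) := by
            have := (tendsto_nhds_of_tendsto_nhdsWithin Real.tendsto_arctan_atTop).const_mul 2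
            exact (Real.continuous_exp.tendsto _).comp this.neg
          have t2 : Real.exp (-(2 * (Real.pi / 2))) < Real.exp (-Real.pi) + δ := by
            rw [show 2 * (Real.pi / 2) = Real.pi by ring]; linarith
          obtain ⟨R, hR1, hR2⟩ := ((t1.eventually (gt_mem_nhds t2)).and
            (eventually_gt_atTop (0 : ℝ))).exists
          refine ⟨d / (1 + R), by positivity, div_le_self hd.le (by linarith), ?_⟩
          have : (d - d / (1 + R)) / (d / (1 + R)) = R := by field_simp; ring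
          rw [this]
          exact hR1.le
        obtain ⟨ρ, hρ, h3⟩ := hunif e he
        have h4 : ∀ᶠ z : ℂ in 𝓝 (x : ℂ), z.im < ρ :=
          (isOpen_lt Complex.continuous_im continuous_const).mem_nhds (by simpa using hρ)
        filter_upwards [h4] with z hz1 hz2
        obtain ⟨y, hy, hzy⟩ := mem_saw.mp hz2
        obtain ⟨b, hb, hzb⟩ := h3 y hy z ⟨hzy.1, hz1⟩ hz2
        show ‖Complex.exp (I * cau (cthickening d B) (θ z))‖ ≤ _
        rw [hnorm]
        refine le_trans ?_ hee
        apply Real.exp_le_exp.mpr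
        have := cau_im_near hBd (hin b hb) he hed (h1 z hz2) hzb
        linarith) hsmall z hz
    simp only [hnorm] at h2
    rw [← Real.exp_add, Real.exp_le_one_iff] at h2
    linarith
  intro z hz
  have hzi := h1 z (hsub hz)
  refine le_of_forall_pos_le_add fun ε hε => ?_
  -- choose `d` with `vol (B_d \ B) ≤ ε Im θ z`
  obtain ⟨d, hd, hdv⟩ : ∃ d > 0, volume (cthickening d B \ B) ≤ ENNReal.ofReal (ε * (θ z).im) := by
    have t1 := tendsto_measure_cthickening_of_isCompact (μ := (volume : Measure ℝ)) hB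
    have t2 : volume B < volume B + ENNReal.ofReal (ε * (θ z).im) :=
      ENNReal.lt_add_right hB.measure_lt_top.ne (by
        rw [ENNReal.ofReal_ne_zero_iff]
        positivity)
    have t3 : ∀ᶠ d in 𝓝[>] (0 : ℝ), volume (cthickening d B) <
        volume B + ENNReal.ofReal (ε * (θ z).im) :=
      (t1.eventually (gt_mem_nhds t2)).filter_mono nhdsWithin_le_nhds
    obtain ⟨d, hd1, hd2⟩ := (t3.and self_mem_nhdsWithin).exists
    refine ⟨d, hd2, ?_⟩
    rw [measure_sdiff (self_subset_cthickening B) hB.measurableSet.nullMeasurableSet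
      hB.measure_lt_top.ne]
    rw [tsub_le_iff_left]
    exact hd1.le
  have h2 := key d hd z hz
  have h3 := cau_im_le_add hB.measurableSet hB.cthickening.measure_lt_top.ne
    (self_subset_cthickening B (δ := d)) hzi
  have h4 : (volume (cthickening d B \ B)).toReal / (θ z).im ≤ ε := by
    rw [div_le_iff₀ hzi]
    exact ENNReal.toReal_le_of_le_ofReal (by positivity) hdv
  linarith

/-- **Loewner at a density point** -/
theorem loewner_point {k h k₁ : ℝ} (hk₁ : 0 < k₁) (hk : k₁ < k) (hh : 0 < h)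
    {K : Set ℝ} (hK : IsCompact K) {θ : ℂ → ℂ} (hθ : DifferentiableOn ℂ θ (saw k h K))
    (h1 : ∀ z ∈ saw k h K, 0 < (θ z).im) {B : Set ℝ} (hB : IsCompact B)
    (hunif : ∀ ε > 0, ∃ δ > 0, ∀ x ∈ K, ∀ z ∈ cone k δ x, z ∈ saw k h K →
      ∃ b ∈ B, ‖θ z - (b : ℝ)‖ ≤ ε)
    {x₀ : ℝ} (hx₀ : x₀ ∈ K) (hD : Dens K x₀) {c' : ℝ} (hc' : c' < Real.pi) :
    ∃ h' > 0, ∀ z ∈ cone k₁ h' x₀, c' < (cau B (θ z)).im := by
  have hk0 : 0 < k := hk₁.trans hk
  have hat0 : 0 < Real.arctan k₁ := Real.arctan_pos.mpr hk₁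
  have hat1 := Real.arctan_lt_pi_div_two k₁
  obtain ⟨c, hc⟩ : ∃ c, c = Real.pi - 2 * Real.arctan k₁ := ⟨_, rfl⟩
  have hc0 : 0 < c := by linarith
  set ρ : ℝ := h / 4 * c with hρ
  have hρ0 : 0 < ρ := by positivity
  set K' : Set ℝ := K ∩ closedBall x₀ ρ with hK'
  have hK'c : IsCompact K' := hK.inter_right isClosed_closedBall
  have hK'f : volume K' ≠ ⊤ := hK'c.measure_lt_top.ne
  have hsub : saw k h K' ⊆ saw k h K := saw_mono hk0 le_rfl le_rfl inter_subset_left
  have hvol : (volume K').toReal / (h / 2) ≤ c := by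
    rw [div_le_iff₀ (by positivity)]
    have h2 : volume K' ≤ ENNReal.ofReal (2 * ρ) := by
      rw [← Real.volume_closedBall]; exact measure_mono inter_subset_right
    have h3 := ENNReal.toReal_le_of_le_ofReal (by positivity) h2
    refine h3.trans (le_of_eq ?_)
    rw [hρ]; ring
  have hD' : Dens K' x₀ := by
    intro ε hε
    obtain ⟨r₀, hr₀, h2⟩ := hD ε hε
    refine ⟨min r₀ ρ, lt_min hr₀ hρ0, fun r hr hr' => ?_⟩
    refine (measure_mono ?_).trans (h2 r hr (hr'.trans_le (min_le_left _ _)))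
    intro t ht
    refine ⟨ht.1, fun htK => ht.2 ⟨htK, ?_⟩⟩
    exact closedBall_subset_closedBall (hr'.trans_le (min_le_right _ _)).le ht.1
  have hx₀' : x₀ ∈ K' := ⟨hx₀, mem_closedBall_self hρ0.le⟩
  obtain ⟨s, hs⟩ : ∃ s, s = Real.pi / (2 * Real.arctan k₁) := ⟨_, rfl⟩
  have hs0 : 0 < s := by rw [hs]; positivity
  have hsπ : s * (Real.pi - c) = Real.pi := by
    rw [hc, hs]
    field_simp
    ring
  -- the level
  obtain ⟨v, hv1, hv2⟩ : ∃ v, v < Real.pi ∧ c' ≤ s * (v - c) := by
    refine ⟨c' / s + c, ?_, ?_⟩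
    · have : c' / s < Real.pi - c := by
        rw [div_lt_iff₀ hs0, mul_comm]
        linarith
      linarith
    · rw [add_sub_cancel_right, mul_div_cancel₀ _ hs0.ne']
  obtain ⟨h', hh', hge⟩ := hD'.cau_ge hK'c.measurableSet hK'f hk₁ (c := v) hv1
  refine ⟨min h' (h / 2), lt_min hh' (by positivity), fun z hz => ?_⟩
  have hz1 : z ∈ cone k₁ h' x₀ := cone_mono hk₁ le_rfl (min_le_left _ _) hz
  have hz2 : z ∈ saw k₁ (h / 2) K' :=
    mem_saw.mpr ⟨x₀, hx₀', cone_mono hk₁ le_rfl (min_le_right _ _) hz⟩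
  have h3 := hge z hz1
  have h4 := loewner_max hk₁ hk (half_pos hh) (half_lt_self hh) hK'c (hθ.mono hsub)
    (fun w hw => h1 w (hsub hw)) hB (fun ε hε => by
      obtain ⟨δ, hδ, h4⟩ := hunif ε hε
      exact ⟨δ, hδ, fun x hx z hz hzs => h4 x hx.1 z hz (hsub hzs)⟩) (by rw [← hc]; exact hvol)
    z hz2
  rw [← hc, ← hs] at h4
  have h5 : s * (v - c) < s * ((cau K' z).im - c) := by
    have := sub_lt_sub_right h3 c
    exact mul_lt_mul_of_pos_left this hs0
  linarith

end Vale.Agent.P097.H63.Tr
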