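import Vale.Agent.P097.H63.Tr1

/-!
Transfer of boundary behaviour through a holomorphic map (Loewner), part 2: one variable,
arbitrary sets.
-/

open Complex Metric Filter Topology Set MeasureTheory
open Vale.Agent.P097.H877.Bd

namespace Vale.Agent.P097.H63.Tr

/-- Egorov, in the form: if almost every point is in `⋂ m, ⋃ j, C m j` then, up to a set of small
measure, `j` can be chosen independently of the point -/
theorem egor {α : Type*} [MeasurableSpace α] {μ : Measure α} [IsFiniteMeasure μ]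
    {C : ℕ → ℕ → Set α} (hC : ∀ m j, MeasurableSet (C m j)) (hmono : ∀ m, Monotone (C m))
    (hfull : ∀ᵐ x ∂μ, ∀ m, ∃ j, x ∈ C m j) {ε : ENNReal} (hε : ε ≠ 0) :
    ∃ j : ℕ → ℕ, μ (⋂ m, C m (j m))ᶜ < ε := by
  obtain ⟨ε', hε'0, hε'⟩ := ENNReal.exists_pos_sum_of_countable hε ℕ
  have hstep : ∀ m : ℕ, ∃ j : ℕ, μ (C m j)ᶜ < ε' m := by
    intro m
    have hanti : Antitone fun j : ℕ => (C m j)ᶜ := fun i j hij => compl_subset_compl.mpr (hmono m hij)
    have hinter : μ (⋂ j : ℕ, (C m j)ᶜ) = 0 := by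
      refine measure_mono_null ?_ (ae_iff.mp hfull)
      intro x hx hcon
      obtain ⟨j, hj⟩ := hcon m
      exact mem_iInter.mp hx j hj
    have htend : Tendsto (fun j : ℕ => μ (C m j)ᶜ) atTop (𝓝 0) := by
      rw [← hinter]
      exact tendsto_measure_iInter_atTop (fun j => (hC m j).compl.nullMeasurableSet) hanti
        ⟨0, measure_ne_top _ _⟩
    have h11 : (0 : ENNReal) < ε' m := by exact_mod_cast hε'0 m
    exact (htend.eventually (gt_mem_nhds h11)).exists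
  choose j hj using hstep
  refine ⟨j, ?_⟩
  rw [compl_iInter]
  calc μ (⋃ m, (C m (j m))ᶜ) ≤ ∑' m, μ (C m (j m))ᶜ := measure_iUnion_le _
    _ ≤ ∑' m, (ε' m : ENNReal) := ENNReal.tsum_le_tsum fun m => (hj m).le
    _ < ε := hε'

/-- the set of vertices of the cones contained in a given set is closed -/
theorem isClosed_coneIn {k h : ℝ} {A : Set ℂ} : IsClosed {x : ℝ | cone k h x ⊆ A} := by
  have h1 : {x : ℝ | cone k h x ⊆ A} = {x : ℝ | cone k h x ⊆ A ∧ ∀ z ∈ cone k h x,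
      ‖(fun _ => 0 : ℂ → ℂ) z‖ ≤ 0} := by
    ext x
    simp
  rw [h1]
  exact isClosed_coneBound

/-- `1 / (n + 1)` -/
noncomputable def rr (n : ℕ) : ℝ := 1 / ((n : ℝ) + 1)

theorem rr_pos (n : ℕ) : 0 < rr n := by unfold rr; positivity

theorem rr_anti {m n : ℕ} (h : m ≤ n) : rr n ≤ rr m := by
  unfold rr
  have : (m : ℝ) ≤ n := Nat.cast_le.mpr h
  gcongr

theorem exists_rr {ε : ℝ} (hε : 0 < ε) : ∃ n, rr n < ε := by
  obtain ⟨n, hn⟩ := exists_nat_gt (1 / ε)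
  refine ⟨n, ?_⟩
  unfold rr
  rw [div_lt_iff₀ hε] at hn
  rw [div_lt_iff₀ (by positivity)]
  nlinarith

/-- the set of all points where `θ` approaches the compact set `B` in the cones -/
def App (D : Set ℂ) (θ : ℂ → ℂ) (B : Set ℝ) (k h : ℝ) : Set ℝ :=
  {x | cone k h x ⊆ D ∧ (∀ z ∈ cone k h x, 0 < (θ z).im) ∧
    ∀ ε > 0, ∃ δ > 0, ∀ z ∈ cone k δ x, z ∈ cone k h x → ∃ b ∈ B, ‖θ z - (b : ℝ)‖ ≤ ε}

/-- **Loewner lemma**, one variable: almost every point of `App` is a point where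
`Im cau B (θ) → π` -/
theorem loewner_ae {D : Set ℂ} {θ : ℂ → ℂ} (hθ : DifferentiableOn ℂ θ D) {B : Set ℝ}
    (hB : IsCompact B) {k h k₁ : ℝ} (hk₁ : 0 < k₁) (hk : k₁ < k) (hh : 0 < h) :
    ∀ᵐ x : ℝ, x ∈ App D θ B k h → ∀ c' < Real.pi, ∃ h' > 0, ∀ z ∈ cone k₁ h' x,
      c' < (cau B (θ z)).im := by
  have hk0 : 0 < k := hk₁.trans hk
  set P : ℝ → Prop := fun x => ∀ c' < Real.pi, ∃ h' > 0, ∀ z ∈ cone k₁ h' x,
    c' < (cau B (θ z)).im with hP
  -- the closed sets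
  set A : ℕ → Set ℂ := fun m => {z | 0 < (θ z).im ∧ ∃ b ∈ B, ‖θ z - (b : ℝ)‖ ≤ rr m} with hA
  set C₀ : Set ℝ := {x | cone k h x ⊆ {z | z ∈ D ∧ 0 < (θ z).im}} with hC₀
  set C : ℕ → ℕ → Set ℝ := fun m j => {x | cone k (min h (rr j)) x ⊆ A m} with hC
  have hC₀c : IsClosed C₀ := isClosed_coneIn
  have hCc : ∀ m j, IsClosed (C m j) := fun m j => isClosed_coneIn
  have hCmono : ∀ m, Monotone (C m) := by
    intro m i j hij x hx
    exact (cone_mono hk0 le_rfl (min_le_min le_rfl (rr_anti hij))).trans hx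
  have hmem : ∀ x ∈ App D θ B k h, x ∈ C₀ ∧ ∀ m, ∃ j, x ∈ C m j := by
    intro x hx
    obtain ⟨h1, h2, h3⟩ := hx
    refine ⟨fun z hz => ⟨h1 hz, h2 z hz⟩, fun m => ?_⟩
    obtain ⟨δ, hδ, h4⟩ := h3 (rr m) (rr_pos m)
    obtain ⟨j, hj⟩ := exists_rr hδ
    refine ⟨j, fun z hz => ?_⟩
    have hz1 : z ∈ cone k h x := cone_mono hk0 le_rfl (min_le_left _ _) hz
    have hz2 : z ∈ cone k δ x := cone_mono hk0 le_rfl ((min_le_right _ _).trans hj.le) hz
    exact ⟨h2 z hz1, h4 z hz2 hz1⟩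
  -- bounded pieces
  have key : ∀ R : ℕ, volume {x : ℝ | ¬ P x ∧ x ∈ App D θ B k h ∧ x ∈ closedBall (0 : ℝ) R} = 0 := by
    intro R
    by_contra hne
    set S : Set ℝ := {x : ℝ | ¬ P x ∧ x ∈ App D θ B k h ∧ x ∈ closedBall (0 : ℝ) R} with hS
    set ν : Measure ℝ := volume.restrict S with hν
    have hSfin : volume S < ⊤ :=
      (measure_mono (fun x hx => hx.2.2)).trans_lt (isCompact_closedBall (0 : ℝ) R).measure_lt_top
    have hνf : IsFiniteMeasure ν := ⟨by simpa [hν] using hSfin⟩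
    have hν0 : ν univ ≠ 0 := by simpa [hν] using hne
    have hfull : ∀ᵐ x ∂ν, ∀ m, ∃ j, x ∈ C m j := by
      have hset : MeasurableSet {x : ℝ | ∀ m, ∃ j, x ∈ C m j} := by
        have : {x : ℝ | ∀ m, ∃ j, x ∈ C m j} = ⋂ m, ⋃ j, C m j := by
          ext x; simp
        rw [this]
        exact MeasurableSet.iInter fun m => MeasurableSet.iUnion fun j => (hCc m j).measurableSet
      rw [hν, ae_restrict_iff hset]
      exact Eventually.of_forall fun x hx => (hmem x hx.2.1).2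
    obtain ⟨j, hj⟩ := egor (fun m j => (hCc m j).measurableSet) hCmono hfull hν0
    set K : Set ℝ := (⋂ m, C m (j m)) ∩ (C₀ ∩ closedBall (0 : ℝ) R) with hK
    have hKc : IsCompact K :=
      ((isCompact_closedBall (0 : ℝ) R).inter_left hC₀c).inter_left
        (isClosed_iInter fun m => hCc _ _)
    have hKν : ν Kᶜ < ν univ := by
      have h2 : Kᶜ = (⋂ m, C m (j m))ᶜ ∪ (C₀ ∩ closedBall (0 : ℝ) R)ᶜ := by
        rw [hK, compl_inter]
      have h3 : ν (C₀ ∩ closedBall (0 : ℝ) R)ᶜ = 0 := by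
        rw [hν, Measure.restrict_apply ((hC₀c.inter isClosed_closedBall).measurableSet.compl)]
        refine measure_mono_null (t := ∅) (fun x hx => ?_) measure_empty
        exact hx.1 ⟨(hmem x hx.2.2.1).1, hx.2.2.2⟩
      rw [h2]
      calc ν ((⋂ m, C m (j m))ᶜ ∪ (C₀ ∩ closedBall (0 : ℝ) R)ᶜ)
          ≤ ν (⋂ m, C m (j m))ᶜ + ν (C₀ ∩ closedBall (0 : ℝ) R)ᶜ := measure_union_le _ _
        _ < ν univ := by rw [h3, add_zero]; exact hj
    have hKpos : volume (K ∩ S) ≠ 0 := by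
      intro h0
      have h2 : ν K = 0 := by
        rw [hν, Measure.restrict_apply hKc.measurableSet]; exact h0
      have h3 : ν univ ≤ ν K + ν Kᶜ := by
        rw [← union_compl_self K]; exact measure_union_le _ _
      rw [h2, zero_add] at h3
      exact absurd hKν (not_lt.mpr h3)
    obtain ⟨x, hx, hxD⟩ : ∃ x ∈ K ∩ S, Dens K x := by
      by_contra hcon
      push Not at hcon
      refine hKpos (measure_mono_null (t := {x | ¬ (x ∈ K → Dens K x)}) (fun x hx => ?_)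
        (ae_iff.mp (ae_dens hKc.measurableSet)))
      exact fun h => hcon x hx (h hx.1)
    refine hx.2.1 fun c' hc' => ?_
    refine loewner_point hk₁ hk hh hKc (θ := θ) (hθ.mono ?_) ?_ hB ?_ hx.1 hxD hc'
    · intro z hz
      obtain ⟨y, hy, hzy⟩ := mem_saw.mp hz
      exact (hy.2.1 hzy).1
    · intro z hz
      obtain ⟨y, hy, hzy⟩ := mem_saw.mp hz
      exact (hy.2.1 hzy).2
    · intro ε hε
      obtain ⟨m, hm⟩ := exists_rr hε
      refine ⟨min h (rr (j m)), lt_min hh (rr_pos _), fun y hy z hz _ => ?_⟩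
      obtain ⟨b, hb, hzb⟩ := (mem_iInter.mp hy.1 m hz).2
      exact ⟨b, hb, hzb.trans hm.le⟩
  have h2 : volume (⋃ R : ℕ, {x : ℝ | ¬ P x ∧ x ∈ App D θ B k h ∧ x ∈ closedBall (0 : ℝ) R}) = 0 :=
    measure_iUnion_null fun R => key R
  rw [ae_iff]
  refine measure_mono_null (fun x hx => ?_) h2
  simp only [mem_ofPred_eq, Classical.not_imp] at hx
  obtain ⟨R, hR⟩ := exists_nat_ge |x|
  refine mem_iUnion.mpr ⟨R, ?_, hx.1, ?_⟩
  · exact hx.2
  · rw [mem_closedBall, dist_zero_right]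
    exact hR

/-- **Loewner lemma**, one variable, all apertures at once -/
theorem loewner_all {D : Set ℂ} {θ : ℂ → ℂ} (hθ : DifferentiableOn ℂ θ D) {B : Set ℝ}
    (hB : IsCompact B) :
    ∀ᵐ x : ℝ, ∀ k h k₁ : ℝ, 0 < k₁ → k₁ < k → 0 < h → x ∈ App D θ B k h →
      ∀ c' < Real.pi, ∃ h' > 0, ∀ z ∈ cone k₁ h' x, c' < (cau B (θ z)).im := by
  have h1 : ∀ᵐ x : ℝ, ∀ p : ℚ × ℚ × ℕ, 0 < p.1 → p.1 < p.2.1 →
      x ∈ App D θ B p.2.1 (rr p.2.2) → ∀ c' < Real.pi, ∃ h' > 0, ∀ z ∈ cone p.1 h' x,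
        c' < (cau B (θ z)).im := by
    rw [ae_all_iff]
    intro p
    by_cases hp : 0 < p.1 ∧ p.1 < p.2.1
    · have := loewner_ae hθ hB (k := p.2.1) (h := rr p.2.2) (k₁ := p.1) (by exact_mod_cast hp.1)
        (by exact_mod_cast hp.2) (rr_pos _)
      filter_upwards [this] with x hx _ _ using hx
    · exact Eventually.of_forall fun x h1 h2 => absurd ⟨h1, h2⟩ hp
  filter_upwards [h1] with x hx k h k₁ hk₁ hk hh hxA c' hc'
  obtain ⟨q, hq1, hq2⟩ := exists_rat_btwn hk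
  obtain ⟨p, hp1, hp2⟩ := exists_rat_btwn hq1
  obtain ⟨n, hn⟩ := exists_rr hh
  have hp0 : (0 : ℝ) < p := hk₁.trans hp1
  have hq0 : (0 : ℝ) < q := hp0.trans hp2
  have hsub : ∀ δ, 0 < δ → cone q (min δ (rr n)) x ⊆ cone k h x := fun δ _ =>
    cone_mono hq0 hq2.le ((min_le_right _ _).trans hn.le)
  have hA : x ∈ App D θ B q (rr n) := by
    obtain ⟨h1, h2, h3⟩ := hxA
    have hs : cone q (rr n) x ⊆ cone k h x := cone_mono hq0 hq2.le hn.le
    refine ⟨hs.trans h1, fun z hz => h2 z (hs hz), fun ε hε => ?_⟩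
    obtain ⟨δ, hδ, h4⟩ := h3 ε hε
    exact ⟨δ, hδ, fun z hz hz' => h4 z (cone_mono hq0 hq2.le le_rfl hz) (hs hz')⟩
  obtain ⟨h', hh', h5⟩ := hx (p, q, n) (by exact_mod_cast hp0) (by exact_mod_cast hp2) hA c' hc'
  exact ⟨h', hh', fun z hz => h5 z (cone_mono hk₁ hp1.le le_rfl hz)⟩

/-- a point where `Im cau B` is large is in every (wide enough) cone over `B` -/
theorem mem_cone_of_cau {B : Set ℝ} (hB : volume B ≠ ⊤) {κ : ℝ} (hκ : 0 < κ) {z : ℂ}
    (hz : 0 < z.im) (h : Real.pi - 2 * Real.arctan κ < (cau B z).im) :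
    ∃ t ∈ B, |z.re - t| < κ * z.im := by
  by_contra hcon
  push Not at hcon
  exact absurd h (not_lt.mpr (cau_le_of_far hB hz hκ hcon))

theorem norm_lt_of_cone {k δ x : ℝ} (hk : 0 < k) {z : ℂ} (hz : z ∈ cone k δ x) :
    ‖z - (x : ℂ)‖ < (k + 1) * δ := by
  have h1 := cone_im_pos hk hz
  have h2 := hz.1
  have h3 := hz.2
  have h7 := Complex.norm_le_abs_re_add_abs_im (z - x)
  simp only [Complex.sub_re, Complex.ofReal_re, Complex.sub_im, Complex.ofReal_im,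
    sub_zero] at h7
  rw [abs_of_pos h1] at h7
  have h4 : (k + 1) * z.im < (k + 1) * δ := by gcongr
  linarith

/-- a limit along a cone, in `ε`-`δ` form -/
theorem cone_tendsto {k h x : ℝ} (hk : 0 < k) {f : ℂ → ℂ} {l : ℂ}
    (ht : Tendsto f (𝓝[cone k h x] (x : ℂ)) (𝓝 l)) {ε : ℝ} (hε : 0 < ε) :
    ∃ δ > 0, ∀ z ∈ cone k δ x, z ∈ cone k h x → ‖f z - l‖ < ε := by
  have h3 := Metric.tendsto_nhds.mp ht ε hε
  rw [eventually_nhdsWithin_iff] at h3
  obtain ⟨δ, hδ, h4⟩ := Metric.eventually_nhds_iff.mp h3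
  refine ⟨δ / (k + 1), by positivity, fun z hz hz' => ?_⟩
  have h5 := norm_lt_of_cone hk hz
  rw [mul_div_cancel₀ _ (by positivity)] at h5
  have h6 := h4 (y := z) (by rwa [dist_eq_norm]) hz'
  rwa [dist_eq_norm] at h6

/-- **Set transfer**, one variable: `A` is an arbitrary set.  At almost every real `x`: if `θ`
(with positive imaginary part) tends to the real number `b` along a cone at `x`, and `A` contains
some cone at `b`, then `θ` maps the (slightly thinner) cone at `x` into `A`. -/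
theorem transfer1 {D : Set ℂ} {θ : ℂ → ℂ} (hθ : DifferentiableOn ℂ θ D) (A : Set ℂ) :
    ∀ᵐ x : ℝ, ∀ k h : ℝ, ∀ b : ℝ, 0 < k → 0 < h → cone k h x ⊆ D →
      (∀ z ∈ cone k h x, 0 < (θ z).im) → Tendsto θ (𝓝[cone k h x] (x : ℂ)) (𝓝 (b : ℂ)) →
      (∃ κ > 0, ∃ ρ > 0, cone κ ρ b ⊆ A) →
      ∀ k₁, 0 < k₁ → k₁ < k → ∃ h' > 0, ∀ z ∈ cone k₁ h' x, θ z ∈ A := by
  set Bn : ℕ → Set ℝ := fun n => {b | cone (rr n) (rr n) b ⊆ A} ∩ closedBall (0 : ℝ) n with hBn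
  have hBc : ∀ n, IsCompact (Bn n) := fun n =>
    (isCompact_closedBall (0 : ℝ) n).inter_left isClosed_coneIn
  have h1 : ∀ᵐ x : ℝ, ∀ n, ∀ k h k₁ : ℝ, 0 < k₁ → k₁ < k → 0 < h → x ∈ App D θ (Bn n) k h →
      ∀ c' < Real.pi, ∃ h' > 0, ∀ z ∈ cone k₁ h' x, c' < (cau (Bn n) (θ z)).im := by
    rw [ae_all_iff]
    exact fun n => loewner_all hθ (hBc n)
  filter_upwards [h1] with x hx k h b hk hh hD him ht hA k₁ hk₁0 hk₁
  obtain ⟨κ, hκ, ρ, hρ, hA⟩ := hA
  obtain ⟨n, hn1, hn2, hn3⟩ : ∃ n : ℕ, rr n ≤ κ ∧ rr n ≤ ρ ∧ |b| ≤ n := by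
    obtain ⟨n₁, h₁⟩ := exists_rr hκ
    obtain ⟨n₂, h₂⟩ := exists_rr hρ
    obtain ⟨n₃, h₃⟩ := exists_nat_ge |b|
    refine ⟨max n₁ (max n₂ n₃), ?_, ?_, h₃.trans ?_⟩
    · exact (rr_anti (le_max_left _ _)).trans h₁.le
    · exact (rr_anti ((le_max_left _ _).trans (le_max_right _ _))).trans h₂.le
    · exact_mod_cast (le_max_right _ _).trans (le_max_right _ _)
  have hb : b ∈ Bn n := by
    refine ⟨(cone_mono (rr_pos n) hn1 hn2).trans hA, ?_⟩
    rw [mem_closedBall, dist_zero_right]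
    exact hn3
  have hApp : x ∈ App D θ (Bn n) k h := by
    refine ⟨hD, him, fun ε hε => ?_⟩
    obtain ⟨δ, hδ, h2⟩ := cone_tendsto hk ht hε
    exact ⟨δ, hδ, fun z hz hz' => ⟨b, hb, (h2 z hz hz').le⟩⟩
  have hat : 0 < Real.arctan (rr n) := Real.arctan_pos.mpr (rr_pos n)
  obtain ⟨h', hh', h2⟩ := hx n k h k₁ hk₁0 hk₁ hh hApp (Real.pi - 2 * Real.arctan (rr n))
    (by linarith)
  obtain ⟨δ, hδ, h3⟩ := cone_tendsto hk ht (rr_pos n)
  refine ⟨min h' (min δ h), lt_min hh' (lt_min hδ hh), fun z hz => ?_⟩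
  have hz1 : z ∈ cone k₁ h' x := cone_mono hk₁0 le_rfl (min_le_left _ _) hz
  have hz2 : z ∈ cone k δ x :=
    cone_mono hk₁0 hk₁.le ((min_le_right _ _).trans (min_le_left _ _)) hz
  have hz3 : z ∈ cone k h x :=
    cone_mono hk₁0 hk₁.le ((min_le_right _ _).trans (min_le_right _ _)) hz
  obtain ⟨t, ht1, ht2⟩ := mem_cone_of_cau (hBc n).measure_lt_top.ne (rr_pos n) (him z hz3)
    (h2 z hz1)
  refine ht1.1 ⟨ht2, ?_⟩
  have h4 := h3 z hz2 hz3
  have h5 := Complex.abs_im_le_norm (θ z - (b : ℂ))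
  simp only [Complex.sub_im, Complex.ofReal_im, sub_zero] at h5
  exact (le_abs_self _).trans_lt (h5.trans_lt h4)

end Vale.Agent.P097.H63.Tr
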