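import Vale.Agent.P097.H63.Tr2

/-!
Transfer of boundary behaviour through a holomorphic map (Loewner), part 3: two variables, over a
measurable edge (Fubini).
-/

open Complex Metric Filter Topology Set MeasureTheory
open Vale.Agent.P097.H877.Bd

namespace Vale.Agent.P097.H63.Tr

/-- the point over the edge point `x = (u, y)` -/
noncomputable def edg (h : ℝ → ℝ) (x : ℝ × ℝ) (ζ : ℂ) : ℂ × ℂ :=
  ((x.2 : ℂ) + (h x.1 : ℂ) * I + ζ, (x.1 : ℂ))

/-- the edge points over which the cone is contained in `U` -/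
def CU (h : ℝ → ℝ) (U : Set (ℂ × ℂ)) (k δ : ℝ) : Set (ℝ × ℝ) :=
  {x | ∀ ζ ∈ cone k δ 0, edg h x ζ ∈ U}

theorem measurable_CU {h : ℝ → ℝ} (hh : Measurable h) {U : Set (ℂ × ℂ)} (hU : IsOpen U)
    (k δ : ℝ) : MeasurableSet (CU h U k δ) := by
  obtain ⟨F, hFc, -, hFU, -⟩ := (isOpen_cone k δ 0).exists_iUnion_isClosed
  set L : ℕ → ℕ → Set ℂ := fun n m => F n ∩ closedBall (0 : ℂ) m with hL
  have hLc : ∀ n m, IsCompact (L n m) := fun n m =>
    (isCompact_closedBall (0 : ℂ) m).inter_left (hFc n)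
  have hop : ∀ n m, IsOpen {p : ℂ × ℂ | ∀ ζ ∈ L n m, (p.1 + ζ, p.2) ∈ U} := by
    intro n m
    rw [isOpen_iff_mem_nhds]
    intro p hp
    refine (hLc n m).eventually_forall_of_forall_eventually
      (P := fun (p : ℂ × ℂ) (ζ : ℂ) => (p.1 + ζ, p.2) ∈ U) fun ζ hζ => ?_
    have hc : Continuous fun z : (ℂ × ℂ) × ℂ => (z.1.1 + z.2, z.1.2) := by fun_prop
    exact (hU.preimage hc).mem_nhds (hp ζ hζ)
  have hm : Measurable fun x : ℝ × ℝ => (((x.2 : ℂ) + (h x.1 : ℂ) * I, (x.1 : ℂ)) : ℂ × ℂ) := by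
    have h1 : Measurable fun x : ℝ × ℝ => ((h x.1 : ℝ) : ℂ) :=
      Complex.measurable_ofReal.comp (hh.comp measurable_fst)
    have h2 : Measurable fun x : ℝ × ℝ => ((x.2 : ℝ) : ℂ) :=
      Complex.measurable_ofReal.comp measurable_snd
    have h3 : Measurable fun x : ℝ × ℝ => ((x.1 : ℝ) : ℂ) :=
      Complex.measurable_ofReal.comp measurable_fst
    exact (h2.add (h1.mul_const I)).prodMk h3
  have hset : CU h U k δ = ⋂ n, ⋂ m, (fun x : ℝ × ℝ =>
      (((x.2 : ℂ) + (h x.1 : ℂ) * I, (x.1 : ℂ)) : ℂ × ℂ)) ⁻¹'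
        {p : ℂ × ℂ | ∀ ζ ∈ L n m, (p.1 + ζ, p.2) ∈ U} := by
    ext x
    simp only [mem_iInter, mem_preimage, mem_ofPred_eq, CU, edg]
    constructor
    · intro hx n m ζ hζ
      refine hx ζ ?_
      rw [← hFU]
      exact mem_iUnion.mpr ⟨n, hζ.1⟩
    · intro hx ζ hζ
      rw [← hFU] at hζ
      obtain ⟨n, hn⟩ := mem_iUnion.mp hζ
      obtain ⟨m, hm⟩ := exists_nat_ge ‖ζ‖
      exact hx n m ζ ⟨hn, by rw [mem_closedBall, dist_zero_right]; exact hm⟩
  rw [hset]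
  exact MeasurableSet.iInter fun n => MeasurableSet.iInter fun m => hm (hop n m).measurableSet

theorem mem_cone_shift {k δ y : ℝ} {z : ℂ} : z ∈ cone k δ y ↔ z - (y : ℂ) ∈ cone k δ 0 := by
  simp [cone]

/-- the slice of the domain at an edge point -/
def slD (Dom : Set (ℂ × ℂ)) (h : ℝ → ℝ) (x : ℝ × ℝ) : Set ℂ := {ζ | edg h x ζ ∈ Dom}

/-- **Loewner lemma** in two variables, over a measurable edge, fixed constants -/
theorem loewner2_fix {Dom : Set (ℂ × ℂ)} (hDom : IsOpen Dom) {θ : ℂ × ℂ → ℂ}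
    (hθ : DifferentiableOn ℂ θ Dom) {B : Set ℝ} (hB : IsCompact B) {h : ℝ → ℝ}
    (hh : Measurable h) {k r k₁ : ℝ} (hk₁ : 0 < k₁) (hk : k₁ < k) (hr : 0 < r) :
    ∀ᵐ x : ℝ × ℝ, (0 : ℝ) ∈ App (slD Dom h x) (fun ζ => θ (edg h x ζ)) B k r →
      ∀ c' < Real.pi, ∃ h' > 0, ∀ ζ ∈ cone k₁ h' 0, c' < (cau B (θ (edg h x ζ))).im := by
  have hk0 : 0 < k := hk₁.trans hk
  set U₀ : Set (ℂ × ℂ) := {z | z ∈ Dom ∧ 0 < (θ z).im} with hU₀
  set U : ℕ → Set (ℂ × ℂ) := fun m =>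
    {z | z ∈ U₀ ∧ θ z ∈ thickening (rr m) ((fun t : ℝ => (t : ℂ)) '' B)} with hU
  set W : ℕ → Set (ℂ × ℂ) := fun m => {z | z ∈ U₀ ∧ Real.pi - rr m < (cau B (θ z)).im} with hW
  have hBf : volume B ≠ ⊤ := hB.measure_lt_top.ne
  have hU₀o : IsOpen U₀ :=
    (Complex.continuous_im.comp_continuousOn hθ.continuousOn).isOpen_inter_preimage hDom isOpen_Ioi
  have hθc : ContinuousOn θ U₀ := hθ.continuousOn.mono fun z hz => hz.1
  have hUo : ∀ m, IsOpen (U m) := fun m =>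
    hθc.isOpen_inter_preimage hU₀o isOpen_thickening
  have hWo : ∀ m, IsOpen (W m) := by
    intro m
    have h1 : ContinuousOn (fun z => (cau B (θ z)).im) U₀ := by
      intro z hz
      have e1 := (differentiableAt_cau hBf hz.2).continuousAt
      have e2 := hθc z hz
      exact (Complex.continuous_im.continuousAt.comp e1).comp_continuousWithinAt e2
    exact h1.isOpen_inter_preimage hU₀o isOpen_Ioi
  set H : Set (ℝ × ℝ) := CU h U₀ k r ∩ ⋂ m, ⋃ j, CU h (U m) k (min r (rr j)) with hH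
  set C : Set (ℝ × ℝ) := ⋂ m, ⋃ j, CU h (W m) k₁ (rr j) with hC
  have hHm : MeasurableSet H :=
    (measurable_CU hh hU₀o _ _).inter (MeasurableSet.iInter fun m => MeasurableSet.iUnion fun j =>
      measurable_CU hh (hUo m) _ _)
  have hCm : MeasurableSet C := MeasurableSet.iInter fun m => MeasurableSet.iUnion fun j =>
    measurable_CU hh (hWo m) _ _
  -- the bad set is null
  have hnull : volume (H \ C) = 0 := by
    rw [Measure.volume_eq_prod, Measure.measure_prod_null (hHm.diff hCm)]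
    refine Eventually.of_forall fun u => ?_
    -- the slice
    set Du : Set ℂ := {z | (z + (h u : ℂ) * I, (u : ℂ)) ∈ Dom} with hDu
    set θu : ℂ → ℂ := fun z => θ (z + (h u : ℂ) * I, (u : ℂ)) with hθu
    have hθud : DifferentiableOn ℂ θu Du := by
      intro z hz
      have h1 := hθ.differentiableAt (hDom.mem_nhds hz)
      have h2 : DifferentiableAt ℂ (fun z : ℂ => (z + (h u : ℂ) * I, (u : ℂ))) z :=
        (differentiableAt_id.add_const _).prodMk (differentiableAt_const _)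
      exact (h1.comp z h2).differentiableWithinAt
    have h1 := loewner_ae hθud hB hk₁ hk hr
    refine measure_mono_null (fun y hy => ?_) (ae_iff.mp h1)
    obtain ⟨⟨hy1, hy2⟩, hy3⟩ := hy
    have hedg : ∀ z : ℂ, edg h (u, y) (z - (y : ℂ)) = (z + (h u : ℂ) * I, (u : ℂ)) := by
      intro z
      simp only [edg]
      ext
      · ring
      · rfl
    intro hcon
    apply hy3
    have hApp : y ∈ App Du θu B k r := by
      refine ⟨fun z hz => ?_, fun z hz => ?_, fun ε hε => ?_⟩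
      · have := (hy1 (z - y) (mem_cone_shift.mp hz)).1
        rwa [hedg] at this
      · have := (hy1 (z - y) (mem_cone_shift.mp hz)).2
        rwa [hedg] at this
      · obtain ⟨m, hm⟩ := exists_rr hε
        obtain ⟨j, hj⟩ := mem_iUnion.mp (mem_iInter.mp hy2 m)
        refine ⟨min r (rr j), lt_min hr (rr_pos _), fun z hz _ => ?_⟩
        have h2 := (hj (z - y) (mem_cone_shift.mp hz)).2
        rw [hedg] at h2
        obtain ⟨b', ⟨b, hb, rfl⟩, h3⟩ := mem_thickening_iff.mp h2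
        rw [dist_eq_norm] at h3
        exact ⟨b, hb, h3.le.trans hm.le⟩
    have h2 := hcon hApp
    refine mem_iInter.mpr fun m => ?_
    obtain ⟨h', hh', h3⟩ := h2 (Real.pi - rr m) (by linarith [rr_pos m])
    obtain ⟨j, hj⟩ := exists_rr (lt_min hh' hr)
    refine mem_iUnion.mpr ⟨j, fun ζ hζ => ?_⟩
    have e1 : ζ + (y : ℂ) ∈ cone k₁ h' y := by
      rw [mem_cone_shift, add_sub_cancel_right]
      exact cone_mono hk₁ le_rfl (hj.le.trans (min_le_left _ _)) hζ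
    have e2 : ζ ∈ cone k r 0 := cone_mono hk₁ hk.le (hj.le.trans (min_le_right _ _)) hζ
    have e3 := h3 _ e1
    have e4 := hedg (ζ + y)
    rw [add_sub_cancel_right] at e4
    refine ⟨hy1 ζ e2, ?_⟩
    rw [e4]
    exact e3
  rw [ae_iff]
  refine measure_mono_null (fun x hx => ?_) hnull
  simp only [mem_ofPred_eq, Classical.not_imp] at hx
  obtain ⟨hxA, hxC⟩ := hx
  obtain ⟨h1, h2, h3⟩ := hxA
  refine ⟨⟨fun ζ hζ => ⟨h1 hζ, h2 ζ hζ⟩, mem_iInter.mpr fun m => ?_⟩, fun hcon => hxC ?_⟩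
  · obtain ⟨δ, hδ, h4⟩ := h3 (rr m / 2) (half_pos (rr_pos m))
    obtain ⟨j, hj⟩ := exists_rr hδ
    refine mem_iUnion.mpr ⟨j, fun ζ hζ => ?_⟩
    have e1 : ζ ∈ cone k r 0 := cone_mono hk0 le_rfl (min_le_left _ _) hζ
    have e2 : ζ ∈ cone k δ 0 := cone_mono hk0 le_rfl ((min_le_right _ _).trans hj.le) hζ
    obtain ⟨b, hb, h5⟩ := h4 ζ e2 e1
    refine ⟨⟨h1 e1, h2 ζ e1⟩, mem_thickening_iff.mpr ⟨b, ⟨b, hb, rfl⟩, ?_⟩⟩
    rw [dist_eq_norm]
    exact h5.trans_lt (half_lt_self (rr_pos m))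
  · intro c' hc'
    obtain ⟨m, hm⟩ := exists_rr (sub_pos.mpr hc')
    obtain ⟨j, hj⟩ := mem_iUnion.mp (mem_iInter.mp hcon m)
    refine ⟨rr j, rr_pos j, fun ζ hζ => ?_⟩
    have := (hj ζ hζ).2
    linarith

end Vale.Agent.P097.H63.Tr
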