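import Vale.Agent.P097.H63.Tr3
import Vale.Agent.P097.H899.Nt2

/-!
Transfer of boundary behaviour through a holomorphic map (Loewner), part 4: two variables,
arbitrary edge, wide tangent cones, arbitrary sets.
-/

open Complex Metric Filter Topology Set MeasureTheory
open Vale.Agent.P097.H877.Bd
open Vale.Agent.P097.H899.Nt

namespace Vale.Agent.P097.H63.Tr

/-- **Loewner lemma** in two variables, over a measurable edge -/
theorem loewner2_meas {Dom : Set (ℂ × ℂ)} (hDom : IsOpen Dom) {θ : ℂ × ℂ → ℂ}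
    (hθ : DifferentiableOn ℂ θ Dom) {B : Set ℝ} (hB : IsCompact B) {h : ℝ → ℝ}
    (hh : Measurable h) :
    ∀ᵐ x : ℝ × ℝ, ∀ k r k₁ : ℝ, 0 < k₁ → k₁ < k → 0 < r →
      (0 : ℝ) ∈ App (slD Dom h x) (fun ζ => θ (edg h x ζ)) B k r →
      ∀ c' < Real.pi, ∃ h' > 0, ∀ ζ ∈ cone k₁ h' 0, c' < (cau B (θ (edg h x ζ))).im := by
  have h1 : ∀ᵐ x : ℝ × ℝ, ∀ p : ℚ × ℚ × ℕ, 0 < p.1 → p.1 < p.2.1 →
      (0 : ℝ) ∈ App (slD Dom h x) (fun ζ => θ (edg h x ζ)) B p.2.1 (rr p.2.2) →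
      ∀ c' < Real.pi, ∃ h' > 0, ∀ z ∈ cone p.1 h' 0, c' < (cau B (θ (edg h x z))).im := by
    rw [ae_all_iff]
    intro p
    by_cases hp : 0 < p.1 ∧ p.1 < p.2.1
    · have := loewner2_fix hDom hθ hB hh (k := p.2.1) (r := rr p.2.2) (k₁ := p.1)
        (by exact_mod_cast hp.1) (by exact_mod_cast hp.2) (rr_pos _)
      filter_upwards [this] with x hx _ _ using hx
    · exact Eventually.of_forall fun x h1 h2 => absurd ⟨h1, h2⟩ hp
  filter_upwards [h1] with x hx k r k₁ hk₁ hk hr hxA c' hc'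
  obtain ⟨q, hq1, hq2⟩ := exists_rat_btwn hk
  obtain ⟨p, hp1, hp2⟩ := exists_rat_btwn hq1
  obtain ⟨n, hn⟩ := exists_rr hr
  have hp0 : (0 : ℝ) < p := hk₁.trans hp1
  have hq0 : (0 : ℝ) < q := hp0.trans hp2
  have hA : (0 : ℝ) ∈ App (slD Dom h x) (fun ζ => θ (edg h x ζ)) B q (rr n) := by
    obtain ⟨h1, h2, h3⟩ := hxA
    have hs : cone q (rr n) 0 ⊆ cone k r 0 := cone_mono hq0 hq2.le hn.le
    refine ⟨hs.trans h1, fun z hz => h2 z (hs hz), fun ε hε => ?_⟩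
    obtain ⟨δ, hδ, h4⟩ := h3 ε hε
    exact ⟨δ, hδ, fun z hz hz' => h4 z (cone_mono hq0 hq2.le le_rfl hz) (hs hz')⟩
  obtain ⟨h', hh', h5⟩ := hx (p, q, n) (by exact_mod_cast hp0) (by exact_mod_cast hp2) hA c' hc'
  exact ⟨h', hh', fun z hz => h5 z (cone_mono hk₁ hp1.le le_rfl hz)⟩

/-- pieces of a graph which is upper differentiable on the edge: the height is Lipschitz on each
of countably many pieces, hence coincides there with a measurable function -/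
theorem pieces {h c : ℝ → ℝ} {E : Set (ℝ × ℝ)}
    (hc : ∀ x ∈ E, ∀ ε > 0, ∃ δ > 0, ∀ x' ∈ E, |x'.1 - x.1| < δ →
      h x'.1 ≤ h x.1 + c x.1 * (x'.1 - x.1) + ε * |x'.1 - x.1|) :
    ∃ g : ℕ × ℤ → ℝ → ℝ, (∀ i, Measurable (g i)) ∧ ∀ x ∈ E, ∃ i, g i x.1 = h x.1 := by
  set P : ℕ × ℤ → Set ℝ := fun i => {u | |c u| ≤ i.1 ∧
    (∃ x ∈ E, x.1 = u ∧ ∀ x' ∈ E, |x'.1 - x.1| < rr i.1 →
      h x'.1 ≤ h x.1 + c x.1 * (x'.1 - x.1) + 1 * |x'.1 - x.1|) ∧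
    u ∈ Ico ((i.2 : ℝ) * rr i.1) (((i.2 : ℝ) + 1) * rr i.1)} with hP
  have hone : ∀ i, ∀ u ∈ P i, ∀ v ∈ P i, h v ≤ h u + ((i.1 : ℝ) + 1) * |v - u| := by
    intro i u hu v hv
    obtain ⟨hu1, ⟨x, hxE, rfl, hx⟩, hu3⟩ := hu
    obtain ⟨hv1, ⟨x', hxE', rfl, hx'⟩, hv3⟩ := hv
    have h1 : |x'.1 - x.1| < rr i.1 := by
      rw [abs_lt]
      constructor <;> nlinarith [hu3.1, hu3.2, hv3.1, hv3.2]
    have h2 := hx x' hxE' h1
    have h3 : c x.1 * (x'.1 - x.1) ≤ i.1 * |x'.1 - x.1| := by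
      refine (le_abs_self _).trans ?_
      rw [abs_mul]
      gcongr
    linarith
  have hlip : ∀ i, LipschitzOnWith ((i.1 : NNReal) + 1) h (P i) := by
    intro i
    rw [lipschitzOnWith_iff_dist_le_mul]
    intro u hu v hv
    rw [Real.dist_eq, Real.dist_eq, abs_le]
    have h1 := hone i u hu v hv
    have h2 := hone i v hv u hu
    rw [abs_sub_comm v u] at h1
    push_cast
    constructor <;> linarith
  have hex := fun i => (hlip i).extend_real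
  choose g hg1 hg2 using hex
  refine ⟨g, fun i => (hg1 i).continuous.measurable, fun x hx => ?_⟩
  obtain ⟨δ, hδ, h1⟩ := hc x hx 1 one_pos
  obtain ⟨n₁, hn₁⟩ := exists_rr hδ
  obtain ⟨n₂, hn₂⟩ := exists_nat_ge |c x.1|
  set n := max n₁ n₂ with hn
  have hr := rr_pos n
  refine ⟨(n, ⌊x.1 / rr n⌋), ?_⟩
  refine (hg2 (n, ⌊x.1 / rr n⌋) ?_).symm
  refine ⟨hn₂.trans (by exact_mod_cast le_max_right _ _), ⟨x, hx, rfl, fun x' hx' hxx => ?_⟩, ?_⟩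
  · exact h1 x' hx' (hxx.trans_le ((rr_anti (le_max_left _ _)).trans hn₁.le))
  · constructor
    · have := Int.floor_le (x.1 / rr n)
      rwa [le_div_iff₀ hr] at this
    · have := Int.lt_floor_add_one (x.1 / rr n)
      rwa [div_lt_iff₀ hr] at this

/-- **Loewner lemma** in two variables, arbitrary edge -/
theorem loewner2 {Dom : Set (ℂ × ℂ)} (hDom : IsOpen Dom) {θ : ℂ × ℂ → ℂ}
    (hθ : DifferentiableOn ℂ θ Dom) {B : Set ℝ} (hB : IsCompact B) {h c : ℝ → ℝ}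
    {E : Set (ℝ × ℝ)}
    (hc : ∀ x ∈ E, ∀ ε > 0, ∃ δ > 0, ∀ x' ∈ E, |x'.1 - x.1| < δ →
      h x'.1 ≤ h x.1 + c x.1 * (x'.1 - x.1) + ε * |x'.1 - x.1|) :
    ∀ᵐ x : ℝ × ℝ, x ∈ E → ∀ k r k₁ : ℝ, 0 < k₁ → k₁ < k → 0 < r →
      (0 : ℝ) ∈ App (slD Dom h x) (fun ζ => θ (edg h x ζ)) B k r →
      ∀ c' < Real.pi, ∃ h' > 0, ∀ ζ ∈ cone k₁ h' 0, c' < (cau B (θ (edg h x ζ))).im := by
  obtain ⟨g, hg, hgE⟩ := pieces hc
  have h1 : ∀ᵐ x : ℝ × ℝ, ∀ i, ∀ k r k₁ : ℝ, 0 < k₁ → k₁ < k → 0 < r →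
      (0 : ℝ) ∈ App (slD Dom (g i) x) (fun ζ => θ (edg (g i) x ζ)) B k r →
      ∀ c' < Real.pi, ∃ h' > 0, ∀ ζ ∈ cone k₁ h' 0, c' < (cau B (θ (edg (g i) x ζ))).im := by
    rw [ae_all_iff]
    exact fun i => loewner2_meas hDom hθ hB (hg i)
  filter_upwards [h1] with x hx hxE
  obtain ⟨i, hi⟩ := hgE x hxE
  have h2 := hx i
  have h3 : ∀ ζ, edg (g i) x ζ = edg h x ζ := fun ζ => by simp only [edg, hi]
  have h4 : slD Dom (g i) x = slD Dom h x := by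
    ext ζ
    simp only [slD, mem_ofPred_eq, h3]
  simp only [h3, h4] at h2
  exact h2

end Vale.Agent.P097.H63.Tr
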